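import Vale.Agent.Lib.P161.Defs

/-!
# P161: the rooted product of two acyclic graphs is acyclic
-/

namespace Vale.Agent.Lib.P161

variable {W F : Type*} {H : SimpleGraph W} {K : SimpleGraph F} {f0 : F}

/-- If `φ` sends every edge of `G₁` to an edge of `G₂` or collapses it, reachability is
transported by `φ`. -/
theorem reachable_of_collapse {V₁ V₂ : Type*} {G₁ : SimpleGraph V₁} {G₂ : SimpleGraph V₂}
    (φ : V₁ → V₂) (hφ : ∀ a b, G₁.Adj a b → φ a = φ b ∨ G₂.Adj (φ a) (φ b))
    {a b : V₁} (h : G₁.Reachable a b) : G₂.Reachable (φ a) (φ b) := by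
  obtain ⟨p⟩ := h
  induction p with
  | nil => exact SimpleGraph.Reachable.refl _
  | cons hadj p ih =>
    rcases hφ _ _ hadj with h1 | h1
    · rw [h1]; exact ih
    · exact h1.reachable.trans ih

theorem rootedProd_base_bridge (hH : H.IsAcyclic) {w w2 : W} (h3 : H.Adj w w2) :
    (rootedProd H K f0).IsBridge s((w, f0), (w2, f0)) := by
  rw [SimpleGraph.isAcyclic_iff_forall_adj_isBridge] at hH
  rw [SimpleGraph.isBridge_iff]
  intro hr
  have hb := hH h3
  rw [SimpleGraph.isBridge_iff] at hb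
  apply hb
  refine reachable_of_collapse (G₂ := H.deleteEdges {s(w, w2)}) Prod.fst ?_ hr
  rintro ⟨a1, a2⟩ ⟨b1, b2⟩ hab
  rw [SimpleGraph.deleteEdges_adj] at hab
  obtain ⟨hab1, hab2⟩ := hab
  rcases hab1 with ⟨g1, g2, g3⟩ | ⟨g1, g2⟩
  · right
    rw [SimpleGraph.deleteEdges_adj]
    refine ⟨g3, ?_⟩
    intro hmem
    apply hab2
    simp only at g1 g2
    subst g1
    subst g2
    simp only [Set.mem_singleton_iff, Sym2.eq_iff, Prod.mk.injEq, and_true] at hmem ⊢
    exact hmem
  · left; exact g1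

theorem rootedProd_fibre_bridge (hK : K.IsAcyclic) (w : W) {f f2 : F} (h3 : K.Adj f f2) :
    (rootedProd H K f0).IsBridge s((w, f), (w, f2)) := by
  classical
  rw [SimpleGraph.isAcyclic_iff_forall_adj_isBridge] at hK
  rw [SimpleGraph.isBridge_iff]
  intro hr
  have hb := hK h3
  rw [SimpleGraph.isBridge_iff] at hb
  apply hb
  have key := reachable_of_collapse (G₂ := K.deleteEdges {s(f, f2)})
    (fun p : W × F => if p.1 = w then p.2 else f0) ?_ hr
  · simpa using key
  rintro ⟨a1, a2⟩ ⟨b1, b2⟩ hab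
  rw [SimpleGraph.deleteEdges_adj] at hab
  obtain ⟨hab1, hab2⟩ := hab
  rcases hab1 with ⟨g1, g2, g3⟩ | ⟨g1, g2⟩
  · left
    simp only at g1 g2
    subst g1
    subst g2
    simp
  · simp only at g1 g2
    subst g1
    by_cases ha : a1 = w
    · right
      subst ha
      simp only [if_true]
      rw [SimpleGraph.deleteEdges_adj]
      refine ⟨g2, ?_⟩
      intro hmem
      apply hab2
      simp only [Set.mem_singleton_iff, Sym2.eq_iff, Prod.mk.injEq, true_and] at hmem ⊢
      exact hmem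
    · left
      simp [ha]

theorem rootedProd_isAcyclic (hH : H.IsAcyclic) (hK : K.IsAcyclic) :
    (rootedProd H K f0).IsAcyclic := by
  rw [SimpleGraph.isAcyclic_iff_forall_adj_isBridge]
  rintro ⟨w, f⟩ ⟨w2, f2⟩ hadj
  rcases hadj with ⟨h1, h2, h3⟩ | ⟨h1, h2⟩
  · simp only at h1 h2 h3
    rw [h1, h2]
    exact rootedProd_base_bridge hH h3
  · simp only at h1 h2
    rw [← h1]
    exact rootedProd_fibre_bridge hK w h2

end Vale.Agent.Lib.P161
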