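import Vale.Agent.Lib.P161.Defs

/-!
# P161: the rooted product of two connected graphs is connected
-/

namespace Vale.Agent.Lib.P161

variable {W F : Type*} {H : SimpleGraph W} {K : SimpleGraph F} {f0 : F}

/-- the inclusion of the fibre over `w` -/
def fibreHom (H : SimpleGraph W) (K : SimpleGraph F) (f0 : F) (w : W) :
    K →g rootedProd H K f0 where
  toFun g := (w, g)
  map_rel' h := Or.inr ⟨rfl, h⟩

/-- the inclusion of the base graph at the root level -/
def baseHom (H : SimpleGraph W) (K : SimpleGraph F) (f0 : F) :
    H →g rootedProd H K f0 where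
  toFun x := (x, f0)
  map_rel' h := Or.inl ⟨rfl, rfl, h⟩

theorem rootedProd_connected (hH : H.Connected) (hK : K.Connected) :
    (rootedProd H K f0).Connected := by
  have : Nonempty W := hH.nonempty
  have : Nonempty F := hK.nonempty
  have key : ∀ p : W × F, (rootedProd H K f0).Reachable p (p.1, f0) := by
    rintro ⟨w, f⟩
    exact (hK.preconnected f f0).map (fibreHom H K f0 w)
  refine ⟨fun p q => ?_⟩
  have h2 : (rootedProd H K f0).Reachable (p.1, f0) (q.1, f0) :=
    (hH.preconnected p.1 q.1).map (baseHom H K f0)
  exact (key p).trans (h2.trans (key q).symm)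

end Vale.Agent.Lib.P161
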