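import Vale.Agent.Lib.P161.Defs

/-!
# P161: degrees in a rooted product
-/

namespace Vale.Agent.Lib.P161

variable {W F : Type*} {H : SimpleGraph W} {K : SimpleGraph F} {f0 : F}

theorem encard_neighborSet_root (w : W) :
    ((rootedProd H K f0).neighborSet (w, f0)).encard =
      (H.neighborSet w).encard + (K.neighborSet f0).encard := by
  have e : (rootedProd H K f0).neighborSet (w, f0)
      = (fun x : W => (x, f0)) '' H.neighborSet w ∪ (fun g : F => (w, g)) '' K.neighborSet f0 := by
    ext ⟨x, g⟩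
    simp only [SimpleGraph.mem_neighborSet, rootedProd, Set.mem_union, Set.mem_image,
      Prod.mk.injEq]
    constructor
    · rintro (⟨_, h2, h3⟩ | ⟨h1, h2⟩)
      · exact Or.inl ⟨x, h3, rfl, h2.symm⟩
      · exact Or.inr ⟨g, h2, h1, rfl⟩
    · rintro (⟨y, hy, rfl, rfl⟩ | ⟨y, hy, rfl, rfl⟩)
      · exact Or.inl ⟨trivial, rfl, hy⟩
      · exact Or.inr ⟨rfl, hy⟩
  have hdisj : Disjoint ((fun x : W => (x, f0)) '' H.neighborSet w)
      ((fun g : F => (w, g)) '' K.neighborSet f0) := by
    rw [Set.disjoint_left]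
    rintro _ ⟨x, _, rfl⟩ ⟨g, hg, hxg⟩
    simp only [Prod.mk.injEq] at hxg
    rw [SimpleGraph.mem_neighborSet, hxg.2] at hg
    exact K.loopless.irrefl _ hg
  rw [e, Set.encard_union_eq hdisj,
    Function.Injective.encard_image (fun a b h => (Prod.mk.inj h).1),
    Function.Injective.encard_image (fun a b h => (Prod.mk.inj h).2)]

theorem encard_neighborSet_ne (w : W) {f : F} (hf : f ≠ f0) :
    ((rootedProd H K f0).neighborSet (w, f)).encard = (K.neighborSet f).encard := by
  have e : (rootedProd H K f0).neighborSet (w, f) = (fun g : F => (w, g)) '' K.neighborSet f := by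
    ext ⟨x, g⟩
    simp only [SimpleGraph.mem_neighborSet, rootedProd, Set.mem_image, Prod.mk.injEq]
    constructor
    · rintro (⟨h1, _, _⟩ | ⟨h1, h2⟩)
      · exact absurd h1 hf
      · exact ⟨g, h2, h1, rfl⟩
    · rintro ⟨y, hy, rfl, rfl⟩
      exact Or.inr ⟨rfl, hy⟩
  rw [e, Function.Injective.encard_image (fun a b h => (Prod.mk.inj h).2)]

end Vale.Agent.Lib.P161
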